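/-
Helper35 — S0175 project, Part II, package DI: disintegration of the apex measure along the
circles (statements verbatim from `Crest.Agent.Helper32.Spec`, section DI; `nuG_univ` is here in the
form `nuG_univ_of`, with the mass of the apex density as a hypothesis, and verbatim in
`Crest.Agent.Helper35.Geom.DIMass`).
-/
import Crest.Agent.Helper32.GeomDefs
import Crest.Agent.Helper35.TwoShell.TS4

set_option autoImplicit false
set_option linter.unusedSectionVars false
open MeasureTheory Set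
open scoped ENNReal
open Crest.AnalysisR.OT
open Crest.Agent.Helper32

namespace Crest.Agent.Helper35

/-! ### rotations of the plane factor -/

section rot
variable {k : ℕ}

theorem rotM_fst (t : ℝ) (x : MS k) :
    (rotM t x).1 = Complex.exp (2 * (Real.pi : ℂ) * (t : ℂ) * Complex.I) * x.1 := rfl

theorem rotM_snd (t : ℝ) (x : MS k) : (rotM t x).2 = x.2 := rfl

theorem turn_eq (t : ℝ) :
    2 * (Real.pi : ℂ) * (t : ℂ) * Complex.I = ((2 * Real.pi * t : ℝ) : ℂ) * Complex.I := by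
  push_cast; ring

theorem norm_exp_turn (t : ℝ) :
    ‖Complex.exp (2 * (Real.pi : ℂ) * (t : ℂ) * Complex.I)‖ = 1 := by
  rw [turn_eq, Complex.norm_exp_ofReal_mul_I]

theorem norm_rotM_fst (t : ℝ) (x : MS k) : ‖(rotM t x).1‖ = ‖x.1‖ := by
  rw [rotM_fst, norm_mul, norm_exp_turn, one_mul]

theorem rotM_add (t t' : ℝ) (x : MS k) : rotM (t + t') x = rotM t (rotM t' x) := by
  refine Prod.ext ?_ rfl
  simp only [rotM_fst]
  rw [← mul_assoc, ← Complex.exp_add]
  congr 2
  push_cast; ring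

theorem rotM_add_one (t : ℝ) (x : MS k) : rotM (t + 1) x = rotM t x := by
  refine Prod.ext ?_ rfl
  simp only [rotM_fst]
  congr 1
  have e : 2 * (Real.pi : ℂ) * ((t + 1 : ℝ) : ℂ) * Complex.I =
      2 * (Real.pi : ℂ) * (t : ℂ) * Complex.I + 2 * (Real.pi : ℂ) * Complex.I := by
    push_cast; ring
  rw [e]
  exact Complex.exp_periodic _

/-- polar decomposition: the point with in-plane angle `0` on the circle through `x` -/
theorem polar_rot (x : MS k) :
    (((‖x.1‖ : ℝ) : ℂ), x.2) = rotM (-(Complex.arg x.1 / (2 * Real.pi))) x := by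
  refine Prod.ext ?_ rfl
  simp only [rotM_fst]
  have hpi : (Real.pi : ℂ) ≠ 0 := Complex.ofReal_ne_zero.mpr Real.pi_ne_zero
  have e : 2 * (Real.pi : ℂ) * ((-(Complex.arg x.1 / (2 * Real.pi)) : ℝ) : ℂ) * Complex.I =
      -((Complex.arg x.1 : ℂ) * Complex.I) := by
    push_cast; field_simp
  rw [e, Complex.exp_neg, eq_comm, inv_mul_eq_iff_eq_mul₀ (Complex.exp_ne_zero _), mul_comm]
  exact (Complex.norm_mul_exp_arg_mul_I x.1).symm

theorem continuous_rotM_uncurry :
    Continuous (fun q : MS k × ℝ => rotM q.2 q.1) := by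
  unfold rotM
  fun_prop

theorem measurable_rotM (t : ℝ) : Measurable (rotM (k := k) t) := by
  have h : Continuous (rotM (k := k) t) := by unfold rotM; fun_prop
  exact h.measurable

theorem rotM_measurePreserving (t : ℝ) :
    MeasurePreserving (rotM (k := k) t) volume volume := by
  have h1 : MeasurePreserving (rotation (Circle.exp (2 * Real.pi * t))) volume volume :=
    (rotation (Circle.exp (2 * Real.pi * t))).measurePreserving
  have h2 : MeasurePreserving (id : EuclideanSpace ℝ (Fin k) → EuclideanSpace ℝ (Fin k))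
      volume volume := MeasurePreserving.id _
  have h3 := h1.prod h2
  have e : rotM (k := k) t = Prod.map (rotation (Circle.exp (2 * Real.pi * t))) id := by
    funext x
    refine Prod.ext ?_ rfl
    simp only [rotM_fst, Prod.map_fst, rotation_apply, Circle.coe_exp, turn_eq]
  rw [e]
  exact h3

end rot

/-! ### the apex density -/

section dens
variable {k : ℕ} (ε : ℝ)

theorem rhoA_rot' (t : ℝ) (x : MS k) : rhoA ε (rotM t x) = rhoA ε x := by
  unfold rhoA rhoA0
  rw [norm_rotM_fst, rotM_snd]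

theorem continuous_rhoA : Continuous (rhoA (k := k) ε) := by
  have h1 : Continuous (fun x : MS k => ε ^ 2 - (‖x.1‖ ^ 2 - 2 * ε) ^ 2 - ‖x.2‖ ^ 2) := by
    fun_prop
  have h2 : Continuous (fun x : MS k =>
      (expNegInvGlue (ε ^ 2 - (‖x.1‖ ^ 2 - 2 * ε) ^ 2 - ‖x.2‖ ^ 2)) ^ 2) :=
    ((expNegInvGlue.contDiff (n := 0)).continuous.comp h1).pow 2
  unfold rhoA rhoA0
  exact h2.div_const _

theorem measurable_rhoA : Measurable (rhoA (k := k) ε) := (continuous_rhoA ε).measurable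

theorem rhoA_off (x : MS k) (hx : x ∉ torus ε) : rhoA ε x = 0 := by
  have h : ε ^ 2 - (‖x.1‖ ^ 2 - 2 * ε) ^ 2 - ‖x.2‖ ^ 2 ≤ 0 := by
    have : ¬ ((‖x.1‖ ^ 2 - 2 * ε) ^ 2 + ‖x.2‖ ^ 2 < ε ^ 2) := hx
    linarith [not_lt.mp this]
  unfold rhoA rhoA0
  rw [expNegInvGlue.zero_of_nonpos h]
  simp

theorem isOpen_torus : IsOpen (torus (k := k) ε) := by
  have h1 : Continuous (fun x : MS k => (‖x.1‖ ^ 2 - 2 * ε) ^ 2 + ‖x.2‖ ^ 2) := by fun_prop
  exact isOpen_lt h1 continuous_const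

theorem torus_fst_ne (x : MS k) (hx : x ∈ torus ε) : x.1 ≠ 0 := by
  intro h0
  have h : (‖x.1‖ ^ 2 - 2 * ε) ^ 2 + ‖x.2‖ ^ 2 < ε ^ 2 := hx
  rw [h0, norm_zero] at h
  nlinarith [sq_nonneg ‖x.2‖, sq_nonneg ε]

/-- the apex measure lives on the torus -/
theorem ae_mem_torus : ∀ᵐ x ∂(measOfDensity (rhoA (k := k) ε)), x ∈ torus ε := by
  rw [ae_iff]
  have hm : MeasurableSet {x : MS k | x ∉ torus ε} := (isOpen_torus ε).measurableSet.compl
  unfold measOfDensity
  rw [withDensity_apply _ hm]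
  refine setLIntegral_eq_zero hm (fun x hx => ?_)
  simp [rhoA_off ε x hx]

theorem measOfDensity_map_rot (t : ℝ) :
    (measOfDensity (rhoA (k := k) ε)).map (rotM t) = measOfDensity (rhoA ε) := by
  ext S hS
  rw [Measure.map_apply (measurable_rotM t) hS]
  unfold measOfDensity
  rw [withDensity_apply _ hS, withDensity_apply _ (measurable_rotM t hS)]
  have h := (rotM_measurePreserving (k := k) t).setLIntegral_comp_preimage hS
    (measurable_rhoA ε).ennreal_ofReal
  simp only [rhoA_rot'] at h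
  exact h

instance sFinite_measOfDensity_rhoA : SFinite (measOfDensity (rhoA (k := k) ε)) := by
  unfold measOfDensity; infer_instance

end dens

/-! ### the base space -/

section base
variable {k : ℕ} (ε : ℝ)

theorem isOpen_Ybase : IsOpen (Ybase k ε) := by
  have h1 : Continuous (fun b : ℝ × EuclideanSpace ℝ (Fin k) =>
      (b.1 ^ 2 - 2 * ε) ^ 2 + ‖b.2‖ ^ 2) := by fun_prop
  have : Ybase k ε = {b | 0 < b.1} ∩ {b | (b.1 ^ 2 - 2 * ε) ^ 2 + ‖b.2‖ ^ 2 < ε ^ 2} := rfl
  rw [this]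
  exact (isOpen_lt continuous_const continuous_fst).inter (isOpen_lt h1 continuous_const)

theorem measurable_baseMap : Measurable (baseMap (k := k)) := by
  have : Continuous (baseMap (k := k)) := by unfold baseMap; fun_prop
  exact this.measurable

theorem baseMap_preimage : baseMap (k := k) ⁻¹' (Ybase k ε) = torus ε := by
  ext x
  constructor
  · intro hx
    exact hx.2
  · intro hx
    exact ⟨norm_pos_iff.mpr (torus_fst_ne ε x hx), hx⟩

/-- integrals against `nuG` -/
theorem lintegral_nuG (G : ℝ × EuclideanSpace ℝ (Fin k) → ℝ≥0∞)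
    (hG : Measurable G) :
    ∫⁻ b : ↥(Ybase k ε), G b.1 ∂(nuG k ε) =
      ∫⁻ x, G (baseMap x) ∂(measOfDensity (rhoA (k := k) ε)) := by
  unfold nuG
  rw [lintegral_subtype_comap (isOpen_Ybase ε).measurableSet G,
    setLIntegral_map (isOpen_Ybase ε).measurableSet hG measurable_baseMap,
    baseMap_preimage ε, Measure.restrict_eq_self_of_ae_mem (ae_mem_torus ε)]

end base

/-! ### the statements of package DI -/

section DI
variable {k : ℕ} (ε : ℝ) (hε : 0 < ε)
include hε

theorem measurableSet_Ybase : MeasurableSet (Ybase k ε) := (isOpen_Ybase ε).measurableSet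

theorem measurable_PhiA : Measurable (PhiA (k := k) ε) := by
  have h1 : Measurable (fun p : ↥(Ybase k ε) × ℝ =>
      (((((p.1.1.1 : ℝ) : ℂ), p.1.1.2) : MS k), p.2)) := by
    refine Measurable.prodMk (Measurable.prodMk ?_ ?_) measurable_snd
    · exact Complex.measurable_ofReal.comp
        (measurable_fst.comp (measurable_subtype_coe.comp measurable_fst))
    · exact measurable_snd.comp (measurable_subtype_coe.comp measurable_fst)
  have h2 : Measurable (fun q : MS k × ℝ => rotM q.2 q.1) :=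
    (continuous_rotM_uncurry (k := k)).measurable
  have e : PhiA (k := k) ε = (fun q : MS k × ℝ => rotM q.2 q.1) ∘
      (fun p : ↥(Ybase k ε) × ℝ => (((((p.1.1.1 : ℝ) : ℂ), p.1.1.2) : MS k), p.2)) := rfl
  rw [e]
  exact h2.comp h1

/-- `nuG_univ` with the mass of the apex density (package DN) as a hypothesis -/
theorem nuG_univ_of (hmass : measOfDensity (rhoA (k := k) ε) univ = 1 / 3) :
    nuG k ε univ = 1 / 3 := by
  have h := lintegral_nuG (k := k) ε (fun _ => 1) measurable_const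
  simp only [lintegral_const, one_mul] at h
  rw [h]
  exact hmass

theorem PhiA_map : (tsΛ (nuG k ε)).map (PhiA ε) = measOfDensity (rhoA (k := k) ε) := by
  ext S hS
  rw [Measure.map_apply (measurable_PhiA ε hε) hS]
  have hind : Measurable (S.indicator (1 : MS k → ℝ≥0∞)) := measurable_one.indicator hS
  -- the fibre function on the base space
  have hrot : Measurable (fun q : MS k × ℝ => rotM q.2 q.1) :=
    (continuous_rotM_uncurry (k := k)).measurable
  have hinner : Measurable (fun q : (ℝ × EuclideanSpace ℝ (Fin k)) × ℝ =>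
      (((((q.1.1 : ℝ) : ℂ), q.1.2) : MS k), q.2)) := by
    refine Measurable.prodMk (Measurable.prodMk ?_ ?_) measurable_snd
    · exact Complex.measurable_ofReal.comp (measurable_fst.comp measurable_fst)
    · exact measurable_snd.comp measurable_fst
  have hG₁ : Measurable (fun q : (ℝ × EuclideanSpace ℝ (Fin k)) × ℝ =>
      S.indicator (1 : MS k → ℝ≥0∞) (rotM q.2 (((q.1.1 : ℝ) : ℂ), q.1.2))) := by
    have h := hind.comp (hrot.comp hinner)
    exact h
  have hG : Measurable (fun y : ℝ × EuclideanSpace ℝ (Fin k) =>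
      ∫⁻ t in Ico (0:ℝ) 1, S.indicator (1 : MS k → ℝ≥0∞) (rotM t (((y.1 : ℝ) : ℂ), y.2))) :=
    hG₁.lintegral_prod_right'
  have hm : Measurable (fun p : ↥(Ybase k ε) × ℝ =>
      S.indicator (1 : MS k → ℝ≥0∞) (PhiA ε p)) := hind.comp (measurable_PhiA ε hε)
  have e0 : tsΛ (nuG k ε) (PhiA ε ⁻¹' S) =
      ∫⁻ p, S.indicator (1 : MS k → ℝ≥0∞) (PhiA ε p) ∂(tsΛ (nuG k ε)) := by
    rw [← lintegral_indicator_one (measurable_PhiA ε hε hS)]
    rfl
  rw [e0, tsΛ_lintegral (nuG k ε) _ hm]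
  have e1 := lintegral_nuG (k := k) ε _ hG
  have e1' : (∫⁻ b : ↥(Ybase k ε),
      (∫⁻ t in Ico (0:ℝ) 1, S.indicator (1 : MS k → ℝ≥0∞) (PhiA ε (b, t))) ∂(nuG k ε)) =
      ∫⁻ x, (∫⁻ t in Ico (0:ℝ) 1, S.indicator (1 : MS k → ℝ≥0∞)
        (rotM t (((‖x.1‖ : ℝ) : ℂ), x.2))) ∂(measOfDensity (rhoA (k := k) ε)) := e1
  rw [e1']
  -- rotate each fibre integral
  have e2 : ∀ x : MS k,
      (∫⁻ t in Ico (0:ℝ) 1, S.indicator (1 : MS k → ℝ≥0∞) (rotM t (((‖x.1‖ : ℝ) : ℂ), x.2))) =
      ∫⁻ t in Ico (0:ℝ) 1, S.indicator (1 : MS k → ℝ≥0∞) (rotM t x) := by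
    intro x
    have hpair : Measurable (fun t : ℝ => ((x, t) : MS k × ℝ)) := measurable_prodMk_left
    have hF : Measurable (fun t : ℝ => S.indicator (1 : MS k → ℝ≥0∞) (rotM t x)) := by
      have h := hind.comp (hrot.comp hpair)
      exact h
    have hper : ∀ t : ℝ, S.indicator (1 : MS k → ℝ≥0∞) (rotM (t + 1) x) =
        S.indicator (1 : MS k → ℝ≥0∞) (rotM t x) := fun t => by rw [rotM_add_one]
    rw [← Crest.Agent.Helper3.arc_shift _ hF hper (-(Complex.arg x.1 / (2 * Real.pi)))]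
    refine lintegral_congr (fun t => ?_)
    rw [polar_rot x, ← rotM_add]
  simp_rw [e2]
  -- Tonelli and rotation invariance
  have hsw : AEMeasurable (Function.uncurry (fun (x : MS k) (t : ℝ) =>
      S.indicator (1 : MS k → ℝ≥0∞) (rotM t x)))
      ((measOfDensity (rhoA (k := k) ε)).prod (volume.restrict (Ico (0:ℝ) 1))) :=
    by
      have h := (hind.comp hrot).aemeasurable
        (μ := (measOfDensity (rhoA (k := k) ε)).prod (volume.restrict (Ico (0:ℝ) 1)))
      exact h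
  rw [lintegral_lintegral_swap hsw]
  have e3 : ∀ t : ℝ, (∫⁻ x, S.indicator (1 : MS k → ℝ≥0∞) (rotM t x)
      ∂(measOfDensity (rhoA (k := k) ε))) = measOfDensity (rhoA (k := k) ε) S := by
    intro t
    have h1 : (∫⁻ x, S.indicator (1 : MS k → ℝ≥0∞) (rotM t x)
        ∂(measOfDensity (rhoA (k := k) ε))) =
        ∫⁻ x, (rotM t ⁻¹' S).indicator (1 : MS k → ℝ≥0∞) x
          ∂(measOfDensity (rhoA (k := k) ε)) := rfl
    rw [h1, lintegral_indicator_one (measurable_rotM t hS),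
      ← Measure.map_apply (measurable_rotM t) hS, measOfDensity_map_rot]
  simp_rw [e3]
  rw [setLIntegral_const, Real.volume_Ico]
  simp

omit hε in
theorem PhiA_fst_norm (p : ↥(Ybase k ε) × ℝ) : ‖(PhiA ε p).1‖ = p.1.1.1 := by
  have h : PhiA ε p = rotM p.2 (((p.1.1.1 : ℝ) : ℂ), p.1.1.2) := rfl
  rw [h, norm_rotM_fst]
  simp only [Complex.norm_real, Real.norm_eq_abs]
  exact abs_of_pos p.1.2.1

theorem range_PhiA : range (PhiA (k := k) ε) = torus ε := by
  ext x
  constructor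
  · rintro ⟨p, rfl⟩
    have h : (p.1.1.1 ^ 2 - 2 * ε) ^ 2 + ‖p.1.1.2‖ ^ 2 < ε ^ 2 := p.1.2.2
    show (‖(PhiA ε p).1‖ ^ 2 - 2 * ε) ^ 2 + ‖(PhiA ε p).2‖ ^ 2 < ε ^ 2
    rw [PhiA_fst_norm]
    exact h
  · intro hx
    have hb : baseMap x ∈ Ybase k ε := by
      rw [← mem_preimage, baseMap_preimage ε]; exact hx
    refine ⟨(⟨baseMap x, hb⟩, Complex.arg x.1 / (2 * Real.pi)), ?_⟩
    have h : PhiA ε (⟨baseMap x, hb⟩, Complex.arg x.1 / (2 * Real.pi)) =
        rotM (Complex.arg x.1 / (2 * Real.pi)) (((‖x.1‖ : ℝ) : ℂ), x.2) := rfl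
    rw [h, polar_rot x, ← rotM_add]
    have h0 : Complex.arg x.1 / (2 * Real.pi) + -(Complex.arg x.1 / (2 * Real.pi)) = 0 := by ring
    rw [h0]
    refine Prod.ext ?_ rfl
    simp [rotM_fst]

theorem PhiA_inj (b : ↥(Ybase k ε)) (t : ℝ) (b' : ↥(Ybase k ε)) (t' : ℝ) (ht : t ∈ Ico (0:ℝ) 1)
    (ht' : t' ∈ Ico (0:ℝ) 1) (h : PhiA ε (b, t) = PhiA ε (b', t')) : b = b' ∧ t = t' := by
  have hn : b.1.1 = b'.1.1 := by
    have h1 := PhiA_fst_norm ε (b, t)
    have h2 := PhiA_fst_norm ε (b', t')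
    rw [h] at h1
    simpa using h1.symm.trans h2
  have h2 : b.1.2 = b'.1.2 := by
    have := congrArg Prod.snd h
    exact this
  have hb : b = b' := Subtype.ext (Prod.ext hn h2)
  refine ⟨hb, ?_⟩
  subst hb
  have h1 : (PhiA ε (b, t)).1 = (PhiA ε (b, t')).1 := congrArg Prod.fst h
  have hr : ((b.1.1 : ℝ) : ℂ) ≠ 0 := Complex.ofReal_ne_zero.mpr (ne_of_gt b.2.1)
  have h3 : Complex.exp (2 * (Real.pi : ℂ) * (t : ℂ) * Complex.I) =
      Complex.exp (2 * (Real.pi : ℂ) * (t' : ℂ) * Complex.I) := by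
    have h4 : Complex.exp (2 * (Real.pi : ℂ) * (t : ℂ) * Complex.I) * ((b.1.1 : ℝ) : ℂ) =
        Complex.exp (2 * (Real.pi : ℂ) * (t' : ℂ) * Complex.I) * ((b.1.1 : ℝ) : ℂ) := h1
    exact mul_right_cancel₀ hr h4
  rw [Complex.exp_eq_exp_iff_exists_int] at h3
  obtain ⟨n, hn⟩ := h3
  have hpi : (Real.pi : ℂ) ≠ 0 := Complex.ofReal_ne_zero.mpr Real.pi_ne_zero
  have h5 : (t : ℂ) = (t' : ℂ) + (n : ℂ) := by
    have : 2 * (Real.pi : ℂ) * Complex.I * (t : ℂ) = 2 * (Real.pi : ℂ) * Complex.I * ((t' : ℂ) + n) := by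
      rw [show 2 * (Real.pi : ℂ) * Complex.I * (t : ℂ) = 2 * (Real.pi : ℂ) * (t : ℂ) * Complex.I by ring,
        hn]
      ring
    exact mul_left_cancel₀ (by simp [hpi, Complex.I_ne_zero]) this
  have h6 : t = t' + n := by exact_mod_cast h5
  have h7 : (n : ℝ) = 0 := by
    have hlt : |(n : ℝ)| < 1 := by
      rw [abs_lt]; constructor <;> linarith [ht.1, ht.2, ht'.1, ht'.2]
    have : |n| < 1 := by exact_mod_cast hlt
    have hn0 : n = 0 := Int.abs_lt_one_iff.mp this
    simp [hn0]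
  linarith

end DI

end Crest.Agent.Helper35
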