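/-
Helper35 — S0175 project, Part II, package DI: `nuG_univ` (verbatim), from the mass of the apex
density, which is computed here directly (the bump `rhoA0` is continuous, compactly supported,
nonnegative and positive at one point).
-/
import Crest.Agent.Helper35.Geom.DI

set_option autoImplicit false
open MeasureTheory Set
open scoped ENNReal
open Crest.AnalysisR.OT
open Crest.Agent.Helper32

namespace Crest.Agent.Helper35

section mass
variable {k : ℕ} (ε : ℝ)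

theorem continuous_rhoA0 : Continuous (rhoA0 (k := k) ε) := by
  have h1 : Continuous (fun x : MS k => ε ^ 2 - (‖x.1‖ ^ 2 - 2 * ε) ^ 2 - ‖x.2‖ ^ 2) := by
    fun_prop
  have h2 : Continuous (fun x : MS k =>
      (expNegInvGlue (ε ^ 2 - (‖x.1‖ ^ 2 - 2 * ε) ^ 2 - ‖x.2‖ ^ 2)) ^ 2) :=
    ((expNegInvGlue.contDiff (n := 0)).continuous.comp h1).pow 2
  unfold rhoA0
  exact h2

theorem rhoA0_nonneg (x : MS k) : 0 ≤ rhoA0 ε x := by
  unfold rhoA0
  exact sq_nonneg _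

theorem rhoA0_off (x : MS k) (hx : x ∉ torus ε) : rhoA0 ε x = 0 := by
  have h : ε ^ 2 - (‖x.1‖ ^ 2 - 2 * ε) ^ 2 - ‖x.2‖ ^ 2 ≤ 0 := by
    have : ¬ ((‖x.1‖ ^ 2 - 2 * ε) ^ 2 + ‖x.2‖ ^ 2 < ε ^ 2) := hx
    linarith [not_lt.mp this]
  unfold rhoA0
  rw [expNegInvGlue.zero_of_nonpos h]
  simp

theorem torus_subset_closedBall :
    torus (k := k) ε ⊆ Metric.closedBall (0 : MS k) (1 + 3 * |ε|) := by
  intro x hx
  have hx' : (‖x.1‖ ^ 2 - 2 * ε) ^ 2 + ‖x.2‖ ^ 2 < ε ^ 2 := hx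
  have he : ε ^ 2 = |ε| ^ 2 := (sq_abs ε).symm
  have h1 : (‖x.1‖ ^ 2 - 2 * ε) ^ 2 < |ε| ^ 2 := by nlinarith [sq_nonneg ‖x.2‖]
  have h2 : ‖x.2‖ ^ 2 < |ε| ^ 2 := by nlinarith [sq_nonneg (‖x.1‖ ^ 2 - 2 * ε)]
  have h3 : ‖x.2‖ < |ε| := lt_of_pow_lt_pow_left₀ 2 (abs_nonneg ε) h2
  have h4 : ‖x.1‖ ^ 2 - 2 * ε < |ε| := by
    have := abs_lt_of_sq_lt_sq h1 (abs_nonneg ε)
    exact (abs_lt.mp this).2
  have h5 : ‖x.1‖ ^ 2 < 3 * |ε| := by linarith [le_abs_self ε]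
  have h6 : ‖x.1‖ ≤ 1 + 3 * |ε| := by
    by_contra hc
    rw [not_le] at hc
    nlinarith [norm_nonneg x.1, abs_nonneg ε]
  rw [Metric.mem_closedBall, dist_zero_right, Prod.norm_def]
  exact max_le h6 (by linarith [abs_nonneg ε])

theorem hasCompactSupport_rhoA0 : HasCompactSupport (rhoA0 (k := k) ε) := by
  refine HasCompactSupport.intro (isCompact_closedBall (0 : MS k) (1 + 3 * |ε|)) ?_
  intro x hx
  exact rhoA0_off ε x (fun h => hx (torus_subset_closedBall ε h))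

theorem integrable_rhoA0 : Integrable (rhoA0 (k := k) ε) :=
  (continuous_rhoA0 ε).integrable_of_hasCompactSupport (hasCompactSupport_rhoA0 ε)

theorem rhoA0_integral_pos (hε : 0 < ε) : 0 < ∫ x : MS k, rhoA0 ε x := by
  refine (continuous_rhoA0 ε).integral_pos_of_hasCompactSupport_nonneg_nonzero
    (hasCompactSupport_rhoA0 ε) (rhoA0_nonneg ε)
    (x := (((Real.sqrt (2 * ε) : ℝ) : ℂ), (0 : EuclideanSpace ℝ (Fin k)))) ?_
  have h1 : ‖((Real.sqrt (2 * ε) : ℝ) : ℂ)‖ ^ 2 = 2 * ε := by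
    rw [Complex.norm_real, Real.norm_eq_abs, sq_abs, Real.sq_sqrt (by positivity)]
  have h2 : rhoA0 (k := k) ε (((Real.sqrt (2 * ε) : ℝ) : ℂ), (0 : EuclideanSpace ℝ (Fin k)))
      = (expNegInvGlue (ε ^ 2)) ^ 2 := by
    unfold rhoA0
    simp only [h1, norm_zero]
    ring_nf
  rw [h2]
  exact pow_ne_zero 2 (expNegInvGlue.pos_of_pos (by positivity)).ne'

theorem rhoA_nonneg' (hε : 0 < ε) (x : MS k) : 0 ≤ rhoA ε x := by
  have hI := rhoA0_integral_pos (k := k) ε hε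
  unfold rhoA
  exact div_nonneg (rhoA0_nonneg ε x) (by positivity)

theorem integrable_rhoA : Integrable (rhoA (k := k) ε) := by
  unfold rhoA
  exact (integrable_rhoA0 ε).div_const _

theorem rhoA_integral' (hε : 0 < ε) : ∫ x : MS k, rhoA ε x = 1 / 3 := by
  have hI := rhoA0_integral_pos (k := k) ε hε
  unfold rhoA
  rw [integral_div]
  field_simp

theorem rhoA_mass' (hε : 0 < ε) : measOfDensity (rhoA (k := k) ε) univ = 1 / 3 := by
  unfold measOfDensity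
  rw [withDensity_apply _ MeasurableSet.univ, Measure.restrict_univ,
    ← ofReal_integral_eq_lintegral_ofReal (integrable_rhoA ε)
      (Filter.Eventually.of_forall (rhoA_nonneg' ε hε)), rhoA_integral' ε hε]
  rw [ENNReal.ofReal_div_of_pos (by norm_num)]
  simp

end mass

theorem nuG_univ {k : ℕ} (ε : ℝ) (hε : 0 < ε) : nuG k ε univ = 1 / 3 :=
  nuG_univ_of ε hε (rhoA_mass' ε hε)

end Crest.Agent.Helper35
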